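import Mathlib

namespace Vale.Agent.Lib.P345

open MvPolynomial

/-- The evaluation point with parameter values `a` (variables `Sum.inl i`) and witness values
`w` (variables `Sum.inr j`); all values are natural numbers, viewed as integers. -/
def pt {n : ℕ} {ι : Type} (a : Fin n → ℕ) (w : ι → ℕ) : Fin n ⊕ ι → ℤ :=
  Sum.elim (fun i => (a i : ℤ)) (fun j => (w j : ℤ))

/-- `P` (an integer polynomial in `n` parameters and `m` witness variables) is a Diophantine
representation of `S ⊆ ℕ^n`: `a ∈ S` iff `P(a, w) = 0` for some `w ∈ ℕ^m`. -/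
def IsDiophRep {n m : ℕ} (P : MvPolynomial (Fin n ⊕ Fin m) ℤ) (S : Set (Fin n → ℕ)) : Prop :=
  ∀ a : Fin n → ℕ, a ∈ S ↔ ∃ w : Fin m → ℕ, eval (pt a w) P = 0

/-- The representation `P` is single-fold: for every parameter `a` there is at most one witness
tuple `w ∈ ℕ^m` with `P(a, w) = 0`. -/
def IsSingleFold {n m : ℕ} (P : MvPolynomial (Fin n ⊕ Fin m) ℤ) : Prop :=
  ∀ (a : Fin n → ℕ) (w w' : Fin m → ℕ),
    eval (pt a w) P = 0 → eval (pt a w') P = 0 → w = w'

/-- `S ⊆ ℕ^n` has a single-fold Diophantine representation. -/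
def HasSingleFoldRep {n : ℕ} (S : Set (Fin n → ℕ)) : Prop :=
  ∃ (m : ℕ) (P : MvPolynomial (Fin n ⊕ Fin m) ℤ), IsDiophRep P S ∧ IsSingleFold P

end Vale.Agent.Lib.P345
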