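import Mathlib
import Vale.Agent.Lib.P345.Defs

namespace Vale.Agent.Lib.P345

open MvPolynomial

theorem pt_comp_map {n : ℕ} {ι κ : Type} (a : Fin n → ℕ) (w : κ → ℕ) (g : ι → κ) :
    pt a w ∘ Sum.map id g = pt a (w ∘ g) := by
  funext x
  cases x <;> rfl

theorem pt_comp_inl {n : ℕ} {ι : Type} (a : Fin n → ℕ) (w : ι → ℕ) :
    pt a w ∘ Sum.inl = fun i => (a i : ℤ) := rfl

theorem sq2_zero {x y : ℤ} : x ^ 2 + y ^ 2 = 0 ↔ x = 0 ∧ y = 0 := by
  constructor
  · intro h
    have hx := sq_nonneg x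
    have hy := sq_nonneg y
    constructor
    · exact pow_eq_zero_iff (two_ne_zero) |>.mp (by linarith)
    · exact pow_eq_zero_iff (two_ne_zero) |>.mp (by linarith)
  · rintro ⟨rfl, rfl⟩
    norm_num

theorem sq3_zero {x y z : ℤ} : x ^ 2 + y ^ 2 + z ^ 2 = 0 ↔ x = 0 ∧ y = 0 ∧ z = 0 := by
  constructor
  · intro h
    have hx := sq_nonneg x
    have hy := sq_nonneg y
    have hz := sq_nonneg z
    refine ⟨?_, ?_, ?_⟩
    · exact pow_eq_zero_iff (two_ne_zero) |>.mp (by linarith)
    · exact pow_eq_zero_iff (two_ne_zero) |>.mp (by linarith)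
    · exact pow_eq_zero_iff (two_ne_zero) |>.mp (by linarith)
  · rintro ⟨rfl, rfl, rfl⟩
    norm_num

/-- A flagged single-fold representation of the characteristic function of `S`: an integer
polynomial in the parameters, a flag variable (witness index `none`) and further witnesses, such
that for every parameter there is exactly one witness tuple at which it vanishes, and its flag is
`1` when the parameter is in `S` and `0` otherwise. -/
def Dec {n : ℕ} (S : Set (Fin n → ℕ)) : Prop :=
  ∃ (ι : Type) (_ : Fintype ι) (P : MvPolynomial (Fin n ⊕ Option ι) ℤ),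
    ∀ a : Fin n → ℕ,
      (∃ w : Option ι → ℕ, eval (pt a w) P = 0) ∧
      (∀ w w' : Option ι → ℕ, eval (pt a w) P = 0 → eval (pt a w') P = 0 → w = w') ∧
      (∀ w : Option ι → ℕ, eval (pt a w) P = 0 →
        (w none = 1 ∧ a ∈ S) ∨ (w none = 0 ∧ a ∉ S))

theorem Dec.compl {n : ℕ} {S : Set (Fin n → ℕ)} (h : Dec S) : Dec Sᶜ := by
  obtain ⟨ι, hι, P, hP⟩ := h
  refine ⟨Option ι, inferInstance,
    (rename (Sum.map id some) P) ^ 2 +
      (X (Sum.inr none) + X (Sum.inr (some none)) - 1) ^ 2, ?_⟩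
  intro a
  have key : ∀ w : Option (Option ι) → ℕ,
      eval (pt a w) ((rename (Sum.map id some) P) ^ 2 +
        (X (Sum.inr none) + X (Sum.inr (some none)) - 1) ^ 2) = 0 ↔
      eval (pt a (w ∘ some)) P = 0 ∧ w none + w (some none) = 1 := by
    intro w
    simp only [map_add, map_pow, map_sub, map_one, eval_X, eval_rename, pt_comp_map, sq2_zero]
    simp only [pt, Sum.elim_inr]
    constructor
    · rintro ⟨h1, h2⟩
      exact ⟨h1, by omega⟩
    · rintro ⟨h1, h2⟩
      exact ⟨h1, by omega⟩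
  obtain ⟨⟨w0, hw0⟩, huniq, hflag⟩ := hP a
  refine ⟨?_, ?_, ?_⟩
  · refine ⟨fun o => match o with | none => 1 - w0 none | some j => w0 j, ?_⟩
    rw [key]
    refine ⟨hw0, ?_⟩
    rcases hflag w0 hw0 with ⟨h1, _⟩ | ⟨h1, _⟩ <;> simp [h1]
  · intro w w' hw hw'
    rw [key] at hw hw'
    have h1 := huniq _ _ hw.1 hw'.1
    funext o
    cases o with
    | none =>
      have h2 : w (some none) = w' (some none) := congrFun h1 none
      omega
    | some j => exact congrFun h1 j
  · intro w hw
    rw [key] at hw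
    rcases hflag _ hw.1 with ⟨h1, h2⟩ | ⟨h1, h2⟩
    · right
      simp only [Function.comp_apply] at h1
      exact ⟨by omega, fun hc => hc h2⟩
    · left
      simp only [Function.comp_apply] at h1
      exact ⟨by omega, h2⟩

theorem Dec.inter {n : ℕ} {S T : Set (Fin n → ℕ)} (hS : Dec S) (hT : Dec T) : Dec (S ∩ T) := by
  obtain ⟨ι, hι, P, hP⟩ := hS
  obtain ⟨κ, hκ, Q, hQ⟩ := hT
  refine ⟨Option ι ⊕ Option κ, inferInstance,
    (rename (Sum.map id (fun o => some (Sum.inl o))) P) ^ 2 +
      (rename (Sum.map id (fun o => some (Sum.inr o))) Q) ^ 2 +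
      (X (Sum.inr none) - X (Sum.inr (some (Sum.inl none))) *
        X (Sum.inr (some (Sum.inr none)))) ^ 2, ?_⟩
  intro a
  have key : ∀ w : Option (Option ι ⊕ Option κ) → ℕ,
      eval (pt a w) ((rename (Sum.map id (fun o => some (Sum.inl o))) P) ^ 2 +
        (rename (Sum.map id (fun o => some (Sum.inr o))) Q) ^ 2 +
        (X (Sum.inr none) - X (Sum.inr (some (Sum.inl none))) *
          X (Sum.inr (some (Sum.inr none)))) ^ 2) = 0 ↔
      eval (pt a (w ∘ fun o => some (Sum.inl o))) P = 0 ∧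
      eval (pt a (w ∘ fun o => some (Sum.inr o))) Q = 0 ∧
      w none = w (some (Sum.inl none)) * w (some (Sum.inr none)) := by
    intro w
    simp only [map_add, map_pow, map_sub, map_mul, eval_X, eval_rename, pt_comp_map, sq3_zero]
    simp only [pt, Sum.elim_inr]
    constructor
    · rintro ⟨h1, h2, h3⟩
      refine ⟨h1, h2, ?_⟩
      have : (w none : ℤ) = ((w (some (Sum.inl none)) * w (some (Sum.inr none)) : ℕ) : ℤ) := by
        push_cast
        linarith
      exact_mod_cast this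
    · rintro ⟨h1, h2, h3⟩
      refine ⟨h1, h2, ?_⟩
      rw [h3]
      push_cast
      ring
  obtain ⟨⟨w1, hw1⟩, huniq1, hflag1⟩ := hP a
  obtain ⟨⟨w2, hw2⟩, huniq2, hflag2⟩ := hQ a
  refine ⟨?_, ?_, ?_⟩
  · refine ⟨fun o => match o with
      | none => w1 none * w2 none
      | some (Sum.inl j) => w1 j
      | some (Sum.inr j) => w2 j, ?_⟩
    rw [key]
    exact ⟨hw1, hw2, rfl⟩
  · intro w w' hw hw'
    rw [key] at hw hw'
    have h1 := huniq1 _ _ hw.1 hw'.1
    have h2 := huniq2 _ _ hw.2.1 hw'.2.1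
    funext o
    cases o with
    | none =>
      have e1 : w (some (Sum.inl none)) = w' (some (Sum.inl none)) := congrFun h1 none
      have e2 : w (some (Sum.inr none)) = w' (some (Sum.inr none)) := congrFun h2 none
      rw [hw.2.2, hw'.2.2, e1, e2]
    | some j =>
      cases j with
      | inl j => exact congrFun h1 j
      | inr j => exact congrFun h2 j
  · intro w hw
    rw [key] at hw
    obtain ⟨hw1', hw2', hw3⟩ := hw
    rcases hflag1 _ hw1' with ⟨f1, m1⟩ | ⟨f1, m1⟩ <;>
      rcases hflag2 _ hw2' with ⟨f2, m2⟩ | ⟨f2, m2⟩ <;>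
      simp only [Function.comp_apply] at f1 f2
    · left
      exact ⟨by rw [hw3, f1, f2], m1, m2⟩
    · right
      exact ⟨by rw [hw3, f1, f2], fun hc => m2 hc.2⟩
    · right
      exact ⟨by rw [hw3, f1, f2], fun hc => m1 hc.1⟩
    · right
      exact ⟨by rw [hw3, f1, f2], fun hc => m1 hc.1⟩

theorem Dec.union {n : ℕ} {S T : Set (Fin n → ℕ)} (hS : Dec S) (hT : Dec T) : Dec (S ∪ T) := by
  have h := (hS.compl.inter hT.compl).compl
  rwa [Set.compl_inter, compl_compl, compl_compl] at h

theorem Dec.univ {n : ℕ} : Dec (Set.univ : Set (Fin n → ℕ)) := by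
  refine ⟨PEmpty, inferInstance, X (Sum.inr none) - 1, ?_⟩
  intro a
  have key : ∀ w : Option PEmpty → ℕ,
      eval (pt a w) (X (Sum.inr none) - 1 : MvPolynomial (Fin n ⊕ Option PEmpty) ℤ) = 0 ↔
        w none = 1 := by
    intro w
    simp only [map_sub, map_one, eval_X, pt, Sum.elim_inr]
    omega
  refine ⟨⟨fun _ => 1, (key _).2 rfl⟩, ?_, ?_⟩
  · intro w w' hw hw'
    rw [key] at hw hw'
    funext o
    cases o with
    | none => rw [hw, hw']
    | some j => exact j.elim
  · intro w hw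
    rw [key] at hw
    exact Or.inl ⟨hw, trivial⟩

theorem Dec.empty {n : ℕ} : Dec (∅ : Set (Fin n → ℕ)) := by
  have h := (Dec.univ (n := n)).compl
  rwa [Set.compl_univ] at h

theorem Dec.iInter_finset {n : ℕ} {α : Type*} (s : Finset α) (S : α → Set (Fin n → ℕ))
    (h : ∀ i ∈ s, Dec (S i)) : Dec (⋂ i ∈ s, S i) := by
  classical
  induction s using Finset.induction_on with
  | empty => simpa using Dec.univ
  | insert i s hi ih =>
    rw [Finset.set_biInter_insert]
    exact (h i (Finset.mem_insert_self i s)).inter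
      (ih fun j hj => h j (Finset.mem_insert_of_mem hj))

theorem Dec.iInter {n : ℕ} {α : Type*} [Fintype α] (S : α → Set (Fin n → ℕ))
    (h : ∀ i, Dec (S i)) : Dec (⋂ i, S i) := by
  have := Dec.iInter_finset Finset.univ S (fun i _ => h i)
  simpa using this

theorem Dec.sUnion {n : ℕ} {𝒮 : Set (Set (Fin n → ℕ))} (hfin : 𝒮.Finite)
    (h : ∀ T ∈ 𝒮, Dec T) : Dec (⋃₀ 𝒮) := by
  induction 𝒮, hfin using Set.Finite.induction_on with
  | empty => simpa using Dec.empty
  | insert _ _ ih =>
    rw [Set.sUnion_insert]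
    exact (h _ (Set.mem_insert _ _)).union (ih fun T hT => h T (Set.mem_insert_of_mem _ hT))

end Vale.Agent.Lib.P345
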