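import Mathlib
import Vale.Agent.Lib.P345.Flag

namespace Vale.Agent.Lib.P345

open MvPolynomial

/-- The value of an integer polynomial in `n` variables at a point of `ℕ^n`. -/
noncomputable def valAt {n : ℕ} (L : MvPolynomial (Fin n) ℤ) (a : Fin n → ℕ) : ℤ :=
  eval (fun i => (a i : ℤ)) L

theorem eval_pt_rename_inl {n : ℕ} {ι : Type} (L : MvPolynomial (Fin n) ℤ) (a : Fin n → ℕ)
    (w : ι → ℕ) : eval (pt a w) (rename Sum.inl L) = valAt L a := by
  rw [eval_rename, pt_comp_inl]
  rfl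

theorem eval_elim_rename_inl {n : ℕ} {ι : Type} (L : MvPolynomial (Fin n) ℤ) (a : Fin n → ℕ)
    (w : ι → ℕ) :
    eval (Sum.elim (fun i => (a i : ℤ)) fun j => (w j : ℤ)) (rename Sum.inl L) = valAt L a :=
  eval_pt_rename_inl L a w

/-- Sign conditions on polynomial values are flagged single-fold. -/
theorem Dec.nonneg {n : ℕ} (L : MvPolynomial (Fin n) ℤ) : Dec {a | 0 ≤ valAt L a} := by
  refine ⟨Unit, inferInstance,
    (X (Sum.inr none) * (X (Sum.inr none) - 1)) ^ 2 +
      (X (Sum.inr none) * (rename Sum.inl L - X (Sum.inr (some ()))) +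
        (1 - X (Sum.inr none)) * (-(rename Sum.inl L) - 1 - X (Sum.inr (some ())))) ^ 2, ?_⟩
  intro a
  have key : ∀ w : Option Unit → ℕ,
      eval (pt a w) ((X (Sum.inr none) * (X (Sum.inr none) - 1)) ^ 2 +
      (X (Sum.inr none) * (rename Sum.inl L - X (Sum.inr (some ()))) +
        (1 - X (Sum.inr none)) * (-(rename Sum.inl L) - 1 - X (Sum.inr (some ())))) ^ 2) = 0 ↔
      (w none = 1 ∧ valAt L a = w (some ())) ∨ (w none = 0 ∧ -valAt L a - 1 = w (some ())) := by
    intro w
    simp only [map_add, map_pow, map_sub, map_mul, map_neg, map_one, eval_X, eval_pt_rename_inl,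
      sq2_zero]
    simp only [pt, Sum.elim_inr]
    constructor
    · rintro ⟨h1, h2⟩
      have hf : w none = 1 ∨ w none = 0 := by
        rcases mul_eq_zero.mp h1 with h | h
        · right
          exact_mod_cast h
        · left
          have : (w none : ℤ) = 1 := by linarith
          exact_mod_cast this
      rcases hf with hf | hf
      · left
        refine ⟨hf, ?_⟩
        rw [hf] at h2
        push_cast at h2
        linarith
      · right
        refine ⟨hf, ?_⟩
        rw [hf] at h2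
        push_cast at h2
        linarith
    · rintro (⟨hf, h⟩ | ⟨hf, h⟩)
      · rw [hf, h]
        norm_num
      · rw [hf, ← h]
        norm_num
  refine ⟨?_, ?_, ?_⟩
  · by_cases hv : 0 ≤ valAt L a
    · refine ⟨fun o => match o with | none => 1 | some _ => (valAt L a).toNat, ?_⟩
      rw [key]
      left
      exact ⟨rfl, (Int.toNat_of_nonneg hv).symm⟩
    · refine ⟨fun o => match o with | none => 0 | some _ => (-valAt L a - 1).toNat, ?_⟩
      rw [key]
      right
      exact ⟨rfl, (Int.toNat_of_nonneg (by omega)).symm⟩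
  · intro w w' hw hw'
    rw [key] at hw hw'
    funext o
    rcases hw with ⟨f, h⟩ | ⟨f, h⟩ <;> rcases hw' with ⟨f', h'⟩ | ⟨f', h'⟩
    · cases o with
      | none => rw [f, f']
      | some u =>
        change w (some ()) = w' (some ())
        omega
    · omega
    · omega
    · cases o with
      | none => rw [f, f']
      | some u =>
        change w (some ()) = w' (some ())
        omega
  · intro w hw
    rw [key] at hw
    rcases hw with ⟨f, h⟩ | ⟨f, h⟩
    · left
      refine ⟨f, ?_⟩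
      show 0 ≤ valAt L a
      omega
    · right
      refine ⟨f, ?_⟩
      show ¬ 0 ≤ valAt L a
      omega

end Vale.Agent.Lib.P345

namespace Vale.Agent.Lib.P345

open MvPolynomial

/-- The system of equations used for the divisibility flag. -/
def DivSol (D : ℕ) (v : ℤ) (f w1 w2 r s t : ℕ) : Prop :=
  v - (D : ℤ) * ((w1 : ℤ) - w2) - r = 0 ∧ (w1 : ℤ) * w2 = 0 ∧
  (r : ℤ) + s - ((D : ℤ) - 1) = 0 ∧ (f : ℤ) * ((f : ℤ) - 1) = 0 ∧ (f : ℤ) * r = 0 ∧
  (f : ℤ) * t = 0 ∧ (1 - (f : ℤ)) * ((r : ℤ) - 1 - t) = 0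

theorem DivSol.flag {D : ℕ} {v : ℤ} {f w1 w2 r s t : ℕ} (h : DivSol D v f w1 w2 r s t) :
    (f = 1 ∧ (D : ℤ) ∣ v) ∨ (f = 0 ∧ ¬ (D : ℤ) ∣ v) := by
  obtain ⟨h1, h2, h3, h4, h5, h6, h7⟩ := h
  rcases mul_eq_zero.mp h4 with hf | hf
  · right
    have hf0 : f = 0 := by exact_mod_cast hf
    refine ⟨hf0, ?_⟩
    rw [hf0] at h7
    have hr : (r : ℤ) = 1 + t := by
      have : (1 : ℤ) * ((r : ℤ) - 1 - t) = 0 := by simpa using h7
      linarith
    intro hdvd
    have hdr : (D : ℤ) ∣ (r : ℤ) := by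
      have e : (r : ℤ) = v - (D : ℤ) * ((w1 : ℤ) - w2) := by linarith
      rw [e]
      exact dvd_sub hdvd (dvd_mul_right _ _)
    have hdr' : D ∣ r := Int.natCast_dvd_natCast.mp hdr
    have hle := Nat.le_of_dvd (by omega) hdr'
    omega
  · left
    have hf1 : f = 1 := by
      have : (f : ℤ) = 1 := by linarith
      exact_mod_cast this
    refine ⟨hf1, ?_⟩
    rw [hf1] at h5
    have hr : (r : ℤ) = 0 := by simpa using h5
    exact ⟨(w1 : ℤ) - w2, by linarith⟩

theorem DivSol.unique {D : ℕ} (hD : 0 < D) {v : ℤ} {f w1 w2 r s t f' w1' w2' r' s' t' : ℕ}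
    (h : DivSol D v f w1 w2 r s t) (h' : DivSol D v f' w1' w2' r' s' t') :
    f = f' ∧ w1 = w1' ∧ w2 = w2' ∧ r = r' ∧ s = s' ∧ t = t' := by
  have hflag := h.flag
  have hflag' := h'.flag
  obtain ⟨h1, h2, h3, h4, h5, h6, h7⟩ := h
  obtain ⟨h1', h2', h3', h4', h5', h6', h7'⟩ := h'
  have hrr : (r : ℤ) = r' := by
    have hd : (D : ℤ) ∣ (r : ℤ) - r' :=
      ⟨((w1' : ℤ) - w2') - ((w1 : ℤ) - w2), by linarith⟩
    have habs : |(r : ℤ) - r'| < D := by
      rw [abs_lt]
      constructor <;> omega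
    have := Int.eq_zero_of_abs_lt_dvd hd habs
    linarith
  have hr : r = r' := by exact_mod_cast hrr
  have hk : (w1 : ℤ) - w2 = (w1' : ℤ) - w2' := by
    have hD' : (D : ℤ) ≠ 0 := by exact_mod_cast hD.ne'
    have : (D : ℤ) * ((w1 : ℤ) - w2) = (D : ℤ) * ((w1' : ℤ) - w2') := by linarith
    exact mul_left_cancel₀ hD' this
  have hz : w1 = 0 ∨ w2 = 0 := by
    rcases mul_eq_zero.mp h2 with hz | hz
    · left; exact_mod_cast hz
    · right; exact_mod_cast hz
  have hz' : w1' = 0 ∨ w2' = 0 := by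
    rcases mul_eq_zero.mp h2' with hz | hz
    · left; exact_mod_cast hz
    · right; exact_mod_cast hz
  have hw : w1 = w1' ∧ w2 = w2' := by
    rcases hz with hz | hz <;> rcases hz' with hz' | hz' <;> omega
  have hs : s = s' := by omega
  have hf : f = f' := by
    rcases hflag with ⟨e, d⟩ | ⟨e, d⟩ <;> rcases hflag' with ⟨e', d'⟩ | ⟨e', d'⟩
    · rw [e, e']
    · exact absurd d d'
    · exact absurd d' d
    · rw [e, e']
  refine ⟨hf, hw.1, hw.2, hr, hs, ?_⟩
  subst hf hr
  rcases hflag with ⟨e, _⟩ | ⟨e, _⟩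
  · subst e
    have a1 : (t : ℤ) = 0 := by simpa using h6
    have a2 : (t' : ℤ) = 0 := by simpa using h6'
    omega
  · subst e
    have a1 : (1 : ℤ) * ((r : ℤ) - 1 - t) = 0 := by simpa using h7
    have a2 : (1 : ℤ) * ((r : ℤ) - 1 - t') = 0 := by simpa using h7'
    omega

theorem DivSol.exists {D : ℕ} (hD : 0 < D) (v : ℤ) :
    ∃ f w1 w2 r s t : ℕ, DivSol D v f w1 w2 r s t := by
  have hD' : (0 : ℤ) < D := by exact_mod_cast hD
  have hr0 := Int.emod_nonneg v hD'.ne'
  have hr1 := Int.emod_lt_of_pos v hD'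
  have hv := Int.emod_add_mul_ediv v D
  have hq : ((v / D).toNat : ℤ) - ((-(v / D)).toNat : ℤ) = v / D := Int.toNat_sub_toNat_neg _
  have hprod : ((v / D).toNat : ℤ) * ((-(v / D)).toNat : ℤ) = 0 := by
    rcases le_total 0 (v / D) with hq0 | hq0
    · rw [Int.toNat_eq_zero.mpr (by omega : -(v / D) ≤ 0)]
      simp
    · rw [Int.toNat_eq_zero.mpr hq0]
      simp
  have hrn : ((v % D).toNat : ℤ) = v % D := Int.toNat_of_nonneg hr0
  by_cases hz : v % D = 0
  · refine ⟨1, (v / D).toNat, (-(v / D)).toNat, (v % D).toNat, D - 1 - (v % D).toNat, 0, ?_⟩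
    refine ⟨?_, hprod, ?_, by norm_num, ?_, by norm_num, by norm_num⟩
    · rw [hq, hrn]
      linarith
    · omega
    · rw [hrn, hz]
      norm_num
  · refine ⟨0, (v / D).toNat, (-(v / D)).toNat, (v % D).toNat, D - 1 - (v % D).toNat,
      (v % D).toNat - 1, ?_⟩
    refine ⟨?_, hprod, ?_, by norm_num, by norm_num, by norm_num, ?_⟩
    · rw [hq, hrn]
      linarith
    · omega
    · have : 1 ≤ (v % D).toNat := by omega
      push_cast [this]
      omega

theorem sum_sq_zero_iff {k : ℕ} (x : Fin k → ℤ) : ∑ i, x i ^ 2 = 0 ↔ ∀ i, x i = 0 := by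
  rw [Finset.sum_eq_zero_iff_of_nonneg (fun i _ => sq_nonneg _)]
  simp

/-- The seven polynomials of the divisibility flag (flag `none`, witnesses `some 0 .. some 4`). -/
noncomputable def divEqs {n : ℕ} (D : ℕ) (L : MvPolynomial (Fin n) ℤ) :
    Fin 7 → MvPolynomial (Fin n ⊕ Option (Fin 5)) ℤ :=
  ![rename Sum.inl L - C (D : ℤ) * (X (Sum.inr (some 0)) - X (Sum.inr (some 1)))
      - X (Sum.inr (some 2)),
    X (Sum.inr (some 0)) * X (Sum.inr (some 1)),
    X (Sum.inr (some 2)) + X (Sum.inr (some 3)) - (C (D : ℤ) - 1),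
    X (Sum.inr none) * (X (Sum.inr none) - 1),
    X (Sum.inr none) * X (Sum.inr (some 2)),
    X (Sum.inr none) * X (Sum.inr (some 4)),
    (1 - X (Sum.inr none)) * (X (Sum.inr (some 2)) - 1 - X (Sum.inr (some 4)))]

theorem divEqs_key {n : ℕ} (D : ℕ) (L : MvPolynomial (Fin n) ℤ) (a : Fin n → ℕ)
    (w : Option (Fin 5) → ℕ) :
    eval (pt a w) (∑ i, divEqs D L i ^ 2) = 0 ↔
      DivSol D (valAt L a) (w none) (w (some 0)) (w (some 1)) (w (some 2)) (w (some 3))
        (w (some 4)) := by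
  simp only [map_sum, map_pow, sum_sq_zero_iff, Fin.forall_fin_succ, divEqs, DivSol]
  simp [eval_elim_rename_inl, pt]

/-- Divisibility conditions on polynomial values are flagged single-fold. -/
theorem Dec.dvd {n : ℕ} {D : ℕ} (hD : 0 < D) (L : MvPolynomial (Fin n) ℤ) :
    Dec {a | (D : ℤ) ∣ valAt L a} := by
  refine ⟨Fin 5, inferInstance, ∑ i, divEqs D L i ^ 2, ?_⟩
  intro a
  refine ⟨?_, ?_, ?_⟩
  · obtain ⟨f, w1, w2, r, s, t, h⟩ := DivSol.exists hD (valAt L a)
    refine ⟨fun o => match o with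
      | none => f
      | some 0 => w1
      | some 1 => w2
      | some 2 => r
      | some 3 => s
      | some 4 => t, ?_⟩
    rw [divEqs_key]
    exact h
  · intro w w' hw hw'
    rw [divEqs_key] at hw hw'
    obtain ⟨e0, e1, e2, e3, e4, e5⟩ := DivSol.unique hD hw hw'
    funext o
    cases o with
    | none => exact e0
    | some j =>
      fin_cases j
      · exact e1
      · exact e2
      · exact e3
      · exact e4
      · exact e5
  · intro w hw
    rw [divEqs_key] at hw
    exact hw.flag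

end Vale.Agent.Lib.P345
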