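import Mathlib
import Vale.Agent.Lib.P345.Atoms

namespace Vale.Agent.Lib.P345

open MvPolynomial Matrix Pointwise

variable {n : ℕ}

/-- The integer matrix whose columns are the vectors of the finite set `t`. -/
def perMat (t : Finset (Fin n → ℕ)) : Matrix (Fin n) t ℤ :=
  fun i p => ((p : Fin n → ℕ) i : ℤ)

/-- The Gram matrix of the vectors of `t`. -/
def gram (t : Finset (Fin n → ℕ)) : Matrix t t ℤ := (perMat t)ᵀ * perMat t

theorem gram_det_ne_zero {t : Finset (Fin n → ℕ)}
    (hind : LinearIndepOn ℕ id (t : Set (Fin n → ℕ))) : (gram t).det ≠ 0 := by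
  intro hdet
  obtain ⟨v, hv0, hv⟩ := Matrix.exists_mulVec_eq_zero_iff.mpr hdet
  have hPv : perMat t *ᵥ v = 0 := by
    have h1 : (perMat t *ᵥ v) ⬝ᵥ (perMat t *ᵥ v) = 0 := by
      have h2 : v ⬝ᵥ (gram t *ᵥ v) = 0 := by rw [hv]; simp
      rw [gram, ← Matrix.mulVec_mulVec, Matrix.dotProduct_mulVec, Matrix.vecMul_transpose] at h2
      exact h2
    exact dotProduct_self_eq_zero.mp h1
  apply hv0
  rw [linearIndepOn_finset_iffₛ] at hind
  funext p
  have key := hind (fun q => if h : q ∈ t then (v ⟨q, h⟩).toNat else 0)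
    (fun q => if h : q ∈ t then (-v ⟨q, h⟩).toNat else 0) ?_ p p.2
  · rw [dif_pos p.2, dif_pos p.2] at key
    simp only [Subtype.coe_eta] at key
    simp only [Pi.zero_apply]
    omega
  · funext i
    have hi : ∑ q : t, ((q : Fin n → ℕ) i : ℤ) * v q = 0 := by
      have := congrFun hPv i
      simpa [Matrix.mulVec, dotProduct, perMat] using this
    simp only [Finset.sum_apply, Pi.smul_apply, id, smul_eq_mul]
    rw [← Finset.sum_coe_sort t, ← Finset.sum_coe_sort t]
    have e1 : ∀ q : t, (if h : (q : Fin n → ℕ) ∈ t then (v ⟨q, h⟩).toNat else 0) =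
        (v q).toNat := fun q => by rw [dif_pos q.2]
    have e2 : ∀ q : t, (if h : (q : Fin n → ℕ) ∈ t then (-v ⟨q, h⟩).toNat else 0) =
        (-v q).toNat := fun q => by rw [dif_pos q.2]
    simp only [e1, e2]
    have hcast : ((∑ q : t, (v q).toNat * (q : Fin n → ℕ) i : ℕ) : ℤ) =
        ((∑ q : t, (-v q).toNat * (q : Fin n → ℕ) i : ℕ) : ℤ) := by
      push_cast
      rw [← sub_eq_zero, ← Finset.sum_sub_distrib]
      rw [← hi]
      refine Finset.sum_congr rfl fun q _ => ?_
      have := Int.toNat_sub_toNat_neg (v q)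
      rw [← sub_mul, this]
      ring
    exact_mod_cast hcast

/-- The integer vector `adj(G) Pᵀ (x - b)`; for `x = b + P c` it equals `det(G) c`. -/
def ell (t : Finset (Fin n → ℕ)) (b x : Fin n → ℕ) : t → ℤ :=
  ((gram t).adjugate * (perMat t)ᵀ) *ᵥ (fun i => (x i : ℤ) - b i)

theorem mem_linear_iff (t : Finset (Fin n → ℕ)) (hD : (gram t).det ≠ 0) (b x : Fin n → ℕ) :
    (∃ c : t → ℕ, x = b + ∑ p : t, c p • (p : Fin n → ℕ)) ↔
    (∀ p : t, ((gram t).det.natAbs : ℤ) ∣ ell t b x p ∧ 0 ≤ (gram t).det * ell t b x p) ∧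
    (∀ i : Fin n, (gram t).det * ((x i : ℤ) - b i) - (perMat t *ᵥ ell t b x) i = 0) := by
  constructor
  · rintro ⟨c, hc⟩
    have hu : (fun i => (x i : ℤ) - b i) = perMat t *ᵥ (fun p => (c p : ℤ)) := by
      funext i
      have := congrFun hc i
      simp only [Pi.add_apply, Finset.sum_apply, Pi.smul_apply, smul_eq_mul] at this
      rw [this]
      simp only [Matrix.mulVec, dotProduct, perMat]
      push_cast
      rw [add_sub_cancel_left]
      exact Finset.sum_congr rfl fun q _ => by ring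
    have hell : ell t b x = (gram t).det • (fun p => (c p : ℤ)) := by
      rw [ell, hu, Matrix.mulVec_mulVec, Matrix.mul_assoc]
      have : (perMat t)ᵀ * perMat t = gram t := rfl
      rw [this, Matrix.adjugate_mul, Matrix.smul_mulVec, Matrix.one_mulVec]
    refine ⟨fun p => ?_, fun i => ?_⟩
    · rw [hell]
      simp only [Pi.smul_apply, smul_eq_mul]
      refine ⟨Int.natAbs_dvd.mpr (dvd_mul_right _ _), ?_⟩
      rw [← mul_assoc]
      exact mul_nonneg (mul_self_nonneg _) (Int.natCast_nonneg _)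
    · rw [hell, Matrix.mulVec_smul, ← hu]
      simp
  · rintro ⟨h1, h2⟩
    have hq : ∀ p : t, ell t b x p = (gram t).det * (ell t b x p / (gram t).det) := fun p =>
      (Int.mul_ediv_cancel' (Int.natAbs_dvd.mp (h1 p).1)).symm
    have hq0 : ∀ p : t, 0 ≤ ell t b x p / (gram t).det := by
      intro p
      have hpos : 0 < (gram t).det * (gram t).det := mul_self_pos.mpr hD
      have := (h1 p).2
      rw [hq p, ← mul_assoc] at this
      exact nonneg_of_mul_nonneg_right this hpos
    refine ⟨fun p => (ell t b x p / (gram t).det).toNat, ?_⟩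
    funext i
    have hi := h2 i
    have hmv : (perMat t *ᵥ ell t b x) i =
        (gram t).det * ∑ p : t, ((p : Fin n → ℕ) i : ℤ) * (ell t b x p / (gram t).det) := by
      simp only [Matrix.mulVec, dotProduct, perMat]
      rw [Finset.mul_sum]
      refine Finset.sum_congr rfl fun p _ => ?_
      conv_lhs => rw [hq p]
      ring
    rw [hmv, ← mul_sub] at hi
    have hi' := (mul_eq_zero.mp hi).resolve_left hD
    simp only [Pi.add_apply, Finset.sum_apply, Pi.smul_apply, smul_eq_mul]
    have hcast : (x i : ℤ) = ((b i + ∑ p : t,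
        (ell t b x p / (gram t).det).toNat * (p : Fin n → ℕ) i : ℕ) : ℤ) := by
      push_cast
      have hsum : ∑ p : t, ((ell t b x p / (gram t).det).toNat : ℤ) * ((p : Fin n → ℕ) i : ℤ) =
          ∑ p : t, ((p : Fin n → ℕ) i : ℤ) * (ell t b x p / (gram t).det) := by
        refine Finset.sum_congr rfl fun p _ => ?_
        rw [Int.toNat_of_nonneg (hq0 p)]
        ring
      rw [hsum]
      linarith
    exact_mod_cast hcast

/-- The polynomial whose value at `x` is `ell t b x p`. -/
noncomputable def ellPoly (t : Finset (Fin n → ℕ)) (b : Fin n → ℕ) (p : t) :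
    MvPolynomial (Fin n) ℤ :=
  ∑ i, C (((gram t).adjugate * (perMat t)ᵀ) p i) * (X i - C (b i : ℤ))

theorem valAt_ellPoly (t : Finset (Fin n → ℕ)) (b x : Fin n → ℕ) (p : t) :
    valAt (ellPoly t b p) x = ell t b x p := by
  simp [valAt, ellPoly, ell, Matrix.mulVec, dotProduct]

/-- The polynomial whose value at `x` is the `i`-th coordinate of `det(G)(x - b) - P ell`. -/
noncomputable def eqPoly (t : Finset (Fin n → ℕ)) (b : Fin n → ℕ) (i : Fin n) :
    MvPolynomial (Fin n) ℤ :=
  C (gram t).det * (X i - C (b i : ℤ)) - ∑ p : t, C (perMat t i p) * ellPoly t b p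

theorem valAt_eqPoly (t : Finset (Fin n → ℕ)) (b x : Fin n → ℕ) (i : Fin n) :
    valAt (eqPoly t b i) x =
      (gram t).det * ((x i : ℤ) - b i) - (perMat t *ᵥ ell t b x) i := by
  have h : ∀ p : t, eval (fun i => (x i : ℤ)) (ellPoly t b p) = ell t b x p :=
    fun p => valAt_ellPoly t b x p
  simp [valAt, eqPoly, Matrix.mulVec, dotProduct, h]

theorem dec_linear (t : Finset (Fin n → ℕ)) (hind : LinearIndepOn ℕ id (t : Set (Fin n → ℕ)))
    (b : Fin n → ℕ) :
    Dec (b +ᵥ (AddSubmonoid.closure (t : Set (Fin n → ℕ)) : Set (Fin n → ℕ))) := by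
  have hD := gram_det_ne_zero hind
  have hset : (b +ᵥ (AddSubmonoid.closure (t : Set (Fin n → ℕ)) : Set (Fin n → ℕ))) =
      (⋂ p : t, ({x | (((gram t).det.natAbs : ℕ) : ℤ) ∣ valAt (ellPoly t b p) x} ∩
          {x | 0 ≤ valAt (C (gram t).det * ellPoly t b p) x})) ∩
        (⋂ i : Fin n, ({x | 0 ≤ valAt (eqPoly t b i) x} ∩
          {x | 0 ≤ valAt (-(eqPoly t b i)) x})) := by
    ext x
    have hmem : x ∈ (b +ᵥ (AddSubmonoid.closure (t : Set (Fin n → ℕ)) : Set (Fin n → ℕ))) ↔
        ∃ c : t → ℕ, x = b + ∑ p : t, c p • (p : Fin n → ℕ) := by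
      rw [Set.mem_vadd_set]
      constructor
      · rintro ⟨y, hy, rfl⟩
        obtain ⟨c, rfl⟩ := AddSubmonoid.mem_closure_finset'.mp hy
        exact ⟨c, rfl⟩
      · rintro ⟨c, rfl⟩
        exact ⟨_, AddSubmonoid.mem_closure_finset'.mpr ⟨c, rfl⟩, rfl⟩
    rw [hmem, mem_linear_iff t hD b x]
    simp only [Set.mem_inter_iff, Set.mem_iInter, Set.mem_ofPred_eq, valAt_ellPoly, valAt_eqPoly]
    have h1 : ∀ p : t, valAt (C (gram t).det * ellPoly t b p) x =
        (gram t).det * ell t b x p := by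
      intro p
      simp [valAt, ← valAt_ellPoly t b x p]
    have h2 : ∀ i : Fin n, valAt (-(eqPoly t b i)) x =
        -((gram t).det * ((x i : ℤ) - b i) - (perMat t *ᵥ ell t b x) i) := by
      intro i
      rw [← valAt_eqPoly]
      simp [valAt]
    simp only [h1, h2]
    constructor
    · rintro ⟨ha, hb⟩
      exact ⟨ha, fun i => ⟨by rw [hb i], by rw [hb i]; simp⟩⟩
    · rintro ⟨ha, hb⟩
      refine ⟨ha, fun i => ?_⟩
      have := hb i
      omega
  rw [hset]
  exact (Dec.iInter _ fun p =>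
      (Dec.dvd (Int.natAbs_pos.mpr hD) _).inter (Dec.nonneg _)).inter
    (Dec.iInter _ fun i => (Dec.nonneg _).inter (Dec.nonneg _))

theorem dec_of_semilinear {S : Set (Fin n → ℕ)} (h : IsSemilinearSet S) : Dec S := by
  obtain ⟨𝒮, hfin, hprop, rfl⟩ := h.isProperSemilinearSet
  refine Dec.sUnion hfin fun T hT => ?_
  obtain ⟨b, t, hind, rfl⟩ := isProperLinearSet_iff.mp (hprop T hT)
  exact dec_linear t hind b

end Vale.Agent.Lib.P345
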