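import Mathlib
import Vale.Agent.Lib.P345.Linear

namespace Vale.Agent.Lib.P345

open MvPolynomial

/-- A flagged single-fold representation gives a single-fold Diophantine representation of the
set itself: fix the flag to `1` and index the witnesses by `Fin m`. -/
theorem Dec.hasSingleFoldRep {n : ℕ} {S : Set (Fin n → ℕ)} (h : Dec S) : HasSingleFoldRep S := by
  obtain ⟨ι, hι, P, hP⟩ := h
  have key : ∀ (a : Fin n → ℕ) (w : Fin (Fintype.card (Option ι)) → ℕ),
      eval (pt a w) (rename (Sum.map id (Fintype.equivFin (Option ι)))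
        (P ^ 2 + (X (Sum.inr none) - 1) ^ 2)) = 0 ↔
        eval (pt a (w ∘ Fintype.equivFin (Option ι))) P = 0 ∧
          w (Fintype.equivFin (Option ι) none) = 1 := by
    intro a w
    rw [eval_rename, pt_comp_map]
    simp only [map_add, map_pow, map_sub, map_one, eval_X, sq2_zero]
    simp only [pt, Sum.elim_inr, Function.comp_apply]
    constructor <;> rintro ⟨h1, h2⟩ <;> exact ⟨h1, by omega⟩
  refine ⟨Fintype.card (Option ι), rename (Sum.map id (Fintype.equivFin (Option ι)))
        (P ^ 2 + (X (Sum.inr none) - 1) ^ 2), ?_, ?_⟩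
  · intro a
    constructor
    · intro ha
      obtain ⟨⟨w0, hw0⟩, -, hflag⟩ := hP a
      have hcomp : (w0 ∘ (Fintype.equivFin (Option ι)).symm) ∘ Fintype.equivFin (Option ι) = w0 := by
        funext j
        simp
      refine ⟨w0 ∘ (Fintype.equivFin (Option ι)).symm, (key a _).2 ⟨?_, ?_⟩⟩
      · rw [hcomp]
        exact hw0
      · rcases hflag w0 hw0 with ⟨f, _⟩ | ⟨_, hn⟩
        · simpa using f
        · exact absurd ha hn
    · rintro ⟨w, hw⟩
      obtain ⟨h1, h2⟩ := (key a w).1 hw
      rcases (hP a).2.2 _ h1 with ⟨_, m⟩ | ⟨f0, _⟩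
      · exact m
      · simp only [Function.comp_apply] at f0
        omega
  · intro a w w' hw hw'
    have h1 := (hP a).2.1 _ _ ((key a w).1 hw).1 ((key a w').1 hw').1
    funext j
    have h2 := congrFun h1 ((Fintype.equivFin (Option ι)).symm j)
    simpa using h2

/-- Every semilinear subset of `ℕ^n` and its complement have single-fold Diophantine
representations. -/
theorem singleFold_of_semilinear {n : ℕ} {S : Set (Fin n → ℕ)} (h : IsSemilinearSet S) :
    HasSingleFoldRep S ∧ HasSingleFoldRep Sᶜ :=
  ⟨(dec_of_semilinear h).hasSingleFoldRep, (dec_of_semilinear h).compl.hasSingleFoldRep⟩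

end Vale.Agent.Lib.P345
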